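import Crest.Agent.S0423.Defs

/-! S0423, module `Needle.Chord`: chords of a concave function, strict monotonicity of `K`. -/

set_option autoImplicit false

namespace Crest.Agent.S0423

open MeasureTheory Set Real

theorem needle_chord_inside {φ : ℝ → ℝ} (hφ : ConcaveOn ℝ univ φ) {y1 y2 y : ℝ} (h12 : y1 < y2)
    (h1 : y1 ≤ y) (h2 : y ≤ y2) :
    φ y2 + (φ y2 - φ y1) / (y2 - y1) * (y - y2) ≤ φ y := by
  have hd : 0 < y2 - y1 := by linarith
  have ha : (0:ℝ) ≤ (y2 - y) / (y2 - y1) := div_nonneg (by linarith) hd.le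
  have hb : (0:ℝ) ≤ (y - y1) / (y2 - y1) := div_nonneg (by linarith) hd.le
  have hab : (y2 - y) / (y2 - y1) + (y - y1) / (y2 - y1) = 1 := by field_simp; ring
  have key := hφ.2 (mem_univ y1) (mem_univ y2) ha hb hab
  have e1 : ((y2 - y) / (y2 - y1)) • y1 + ((y - y1) / (y2 - y1)) • y2 = y := by
    simp only [smul_eq_mul]; field_simp; ring
  rw [e1] at key
  simp only [smul_eq_mul] at key
  have e2 : φ y2 + (φ y2 - φ y1) / (y2 - y1) * (y - y2)
      = (y2 - y) / (y2 - y1) * φ y1 + (y - y1) / (y2 - y1) * φ y2 := by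
    field_simp; ring
  rw [e2]; exact key

theorem needle_chord_left {φ : ℝ → ℝ} (hφ : ConcaveOn ℝ univ φ) {y1 y2 y : ℝ} (h12 : y1 < y2)
    (h : y ≤ y1) :
    φ y ≤ φ y2 + (φ y2 - φ y1) / (y2 - y1) * (y - y2) := by
  have hd : 0 < y2 - y1 := by linarith
  have hd' : 0 < y2 - y := by linarith
  have ha : (0:ℝ) ≤ (y2 - y1) / (y2 - y) := div_nonneg hd.le hd'.le
  have hb : (0:ℝ) ≤ (y1 - y) / (y2 - y) := div_nonneg (by linarith) hd'.le
  have hab : (y2 - y1) / (y2 - y) + (y1 - y) / (y2 - y) = 1 := by field_simp; ring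
  have key := hφ.2 (mem_univ y) (mem_univ y2) ha hb hab
  have e1 : ((y2 - y1) / (y2 - y)) • y + ((y1 - y) / (y2 - y)) • y2 = y1 := by
    simp only [smul_eq_mul]; field_simp; ring
  rw [e1] at key
  simp only [smul_eq_mul] at key
  -- key : (y2 - y1)/(y2 - y) * φ y + (y1 - y)/(y2 - y) * φ y2 ≤ φ y1
  have key2 : (y2 - y1) * φ y + (y1 - y) * φ y2 ≤ φ y1 * (y2 - y) := by
    have := mul_le_mul_of_nonneg_right key hd'.le
    have e : ((y2 - y1) / (y2 - y) * φ y + (y1 - y) / (y2 - y) * φ y2) * (y2 - y)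
        = (y2 - y1) * φ y + (y1 - y) * φ y2 := by field_simp
    linarith
  have e3 : φ y2 + (φ y2 - φ y1) / (y2 - y1) * (y - y2)
      = (φ y2 * (y2 - y1) + (φ y2 - φ y1) * (y - y2)) / (y2 - y1) := by
    field_simp
  rw [e3, le_div_iff₀ hd]
  nlinarith

theorem needle_chord_right {φ : ℝ → ℝ} (hφ : ConcaveOn ℝ univ φ) {y1 y2 y : ℝ} (h12 : y1 < y2)
    (h : y2 ≤ y) :
    φ y ≤ φ y2 + (φ y2 - φ y1) / (y2 - y1) * (y - y2) := by
  have hd : 0 < y2 - y1 := by linarith
  have hd' : 0 < y - y1 := by linarith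
  have ha : (0:ℝ) ≤ (y - y2) / (y - y1) := div_nonneg (by linarith) hd'.le
  have hb : (0:ℝ) ≤ (y2 - y1) / (y - y1) := div_nonneg hd.le hd'.le
  have hab : (y - y2) / (y - y1) + (y2 - y1) / (y - y1) = 1 := by field_simp; ring
  have key := hφ.2 (mem_univ y1) (mem_univ y) ha hb hab
  have e1 : ((y - y2) / (y - y1)) • y1 + ((y2 - y1) / (y - y1)) • y = y2 := by
    simp only [smul_eq_mul]; field_simp; ring
  rw [e1] at key
  simp only [smul_eq_mul] at key
  have key2 : (y - y2) * φ y1 + (y2 - y1) * φ y ≤ φ y2 * (y - y1) := by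
    have := mul_le_mul_of_nonneg_right key hd'.le
    have e : ((y - y2) / (y - y1) * φ y1 + (y2 - y1) / (y - y1) * φ y) * (y - y1)
        = (y - y2) * φ y1 + (y2 - y1) * φ y := by field_simp
    linarith
  have e3 : φ y2 + (φ y2 - φ y1) / (y2 - y1) * (y - y2)
      = (φ y2 * (y2 - y1) + (φ y2 - φ y1) * (y - y2)) / (y2 - y1) := by
    field_simp
  rw [e3, le_div_iff₀ hd]
  nlinarith

/-- slopes of adjacent chords decrease. -/
theorem needle_slope_adjacent {φ : ℝ → ℝ} (hφ : ConcaveOn ℝ univ φ) {x y z : ℝ} (hxy : x < y)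
    (hyz : y < z) : (φ z - φ y) / (z - y) ≤ (φ y - φ x) / (y - x) :=
  hφ.slope_anti_adjacent (mem_univ x) (mem_univ z) hxy hyz

/-- A nice log-concave CDF which is `< 1` everywhere is strictly increasing. -/
theorem needle_strictMono {K : ℝ → ℝ} {m : ℝ} (hK : LC K m) (h1 : ∀ y, K y < 1) : StrictMono K := by
  intro y1 y2 h12
  by_contra hcon
  have heq : K y1 = K y2 := le_antisymm (hK.mono h12.le) (not_lt.mp hcon)
  -- then K ≤ K y2 on [y2, ∞), contradicting the limit 1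
  have hle : ∀ y, y2 ≤ y → K y ≤ K y2 := by
    intro y hy
    have := needle_chord_right hK.conc h12 hy
    simp only [heq, sub_self, zero_div, zero_mul, add_zero] at this
    exact (Real.log_le_log_iff (hK.pos y) (hK.pos y2)).mp this
  have hev : ∀ᶠ y in Filter.atTop, K y2 < K y :=
    (hK.tend_top.eventually (lt_mem_nhds (h1 y2)))
  obtain ⟨y, hy1, hy2⟩ := (hev.and (Filter.eventually_ge_atTop y2)).exists
  exact absurd (hle y hy2) (not_le.mpr hy1)

end Crest.Agent.S0423
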