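import Crest.Agent.S0423.Needle.Fn

/-! S0423, module `Needle.Compare`: the comparison lemma for the functional `I`. -/

set_option autoImplicit false

namespace Crest.Agent.S0423

open MeasureTheory Set Real

theorem needle_w_integrableOn : IntegrableOn (fun x : ℝ => x * Real.exp (-x)) (Ioi 0) := by
  have h := Real.GammaIntegral_convergent (s := 2) (by norm_num)
  refine h.congr_fun (fun x hx => ?_) measurableSet_Ioi
  have : (2:ℝ) - 1 = 1 := by norm_num
  simp only [this, Real.rpow_one]
  ring

theorem needleW_measurable : Measurable needleW := by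
  unfold needleW
  refine Measurable.ite measurableSet_Ioi ?_ measurable_const
  fun_prop

theorem needleW_eq_indicator : needleW = (Ioi (0:ℝ)).indicator (fun x => x * Real.exp (-x)) := by
  funext x
  unfold needleW indicator
  simp only [mem_Ioi]

/-- integrability of the integrand of `needleI F` for bounded measurable `F`. -/
theorem needleI_integrableOn {F : ℝ → ℝ} (hF : Measurable F) (hFb : ∀ y, |F y| ≤ 1) :
    IntegrableOn (fun x : ℝ => x * Real.exp (-x) * F (4/3 - x)) (Ioi 0) := by
  refine Integrable.mul_bdd (c := 1) needle_w_integrableOn ?_ ?_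
  · exact (hF.comp (measurable_const.sub measurable_id)).aestronglyMeasurable
  · exact Filter.Eventually.of_forall (fun x => by simpa [Real.norm_eq_abs] using hFb (4/3 - x))

/-- The comparison lemma: if `(W - θ)(F - G) ≥ 0` pointwise then
`I(F) - I(G) ≥ θ (∫(F - hv) - ∫(G - hv))`. -/
theorem needle_compare {F G : ℝ → ℝ} (hF : Measurable F) (hG : Measurable G)
    (hFb : ∀ y, |F y| ≤ 1) (hGb : ∀ y, |G y| ≤ 1)
    (hFi : Integrable (fun y => F y - hv y)) (hGi : Integrable (fun y => G y - hv y)) (θ : ℝ)
    (hpt : ∀ x : ℝ, 0 ≤ (needleW x - θ) * (F (4/3 - x) - G (4/3 - x))) :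
    θ * ((∫ y, (F y - hv y)) - ∫ y, (G y - hv y)) ≤ needleI F - needleI G := by
  -- D(x) = F(c - x) - G(c - x)
  have hFG : Integrable (fun y => F y - G y) := by
    have := hFi.sub hGi
    refine this.congr (Filter.Eventually.of_forall (fun y => ?_))
    simp
  have hD : Integrable (fun x : ℝ => F (4/3 - x) - G (4/3 - x)) :=
    hFG.comp_sub_left (4/3)
  have hDint : ∫ x : ℝ, (F (4/3 - x) - G (4/3 - x)) = (∫ y, (F y - hv y)) - ∫ y, (G y - hv y) := by
    rw [integral_sub_left_eq_self (fun y => F y - G y) volume (4/3), ← integral_sub hFi hGi]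
    congr 1; funext y; ring
  have hWD : Integrable (fun x : ℝ => needleW x * (F (4/3 - x) - G (4/3 - x))) := by
    refine Integrable.bdd_mul (c := Real.exp (-1)) hD needleW_measurable.aestronglyMeasurable ?_
    refine Filter.Eventually.of_forall (fun x => ?_)
    rw [Real.norm_eq_abs, abs_of_nonneg (needleW_nonneg x)]
    exact needleW_le x
  have hWDint : ∫ x : ℝ, needleW x * (F (4/3 - x) - G (4/3 - x)) = needleI F - needleI G := by
    unfold needleI
    rw [← integral_sub (needleI_integrableOn hF hFb) (needleI_integrableOn hG hGb)]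
    rw [← integral_indicator measurableSet_Ioi]
    congr 1; funext x
    rw [needleW_eq_indicator]
    by_cases hx : x ∈ Ioi (0:ℝ)
    · simp only [indicator_of_mem hx]; ring
    · simp only [indicator_of_notMem hx]; ring
  have hnn : 0 ≤ ∫ x : ℝ, (needleW x - θ) * (F (4/3 - x) - G (4/3 - x)) :=
    integral_nonneg hpt
  have hsplit : ∫ x : ℝ, (needleW x - θ) * (F (4/3 - x) - G (4/3 - x))
      = (needleI F - needleI G) - θ * ((∫ y, (F y - hv y)) - ∫ y, (G y - hv y)) := by
    rw [← hWDint, ← hDint, ← integral_const_mul, ← integral_sub hWD (hD.const_mul θ)]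
    congr 1; funext x; ring
  linarith

end Crest.Agent.S0423
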