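import Crest.Agent.S0423.Needle.Weight

/-! S0423, module `Needle.Fn`: the needle CDFs `E_{β,σ}`, the functional `I`, the comparison lemma. -/

set_option autoImplicit false

namespace Crest.Agent.S0423

open MeasureTheory Set Real

/-- the needle `E_{β,σ}(y) = min 1 (exp ((y - β)/σ))`: the CDF of `β - σ X`. -/
noncomputable def needleE (β σ : ℝ) (y : ℝ) : ℝ := min 1 (Real.exp ((y - β) / σ))

/-- the functional `I(F) = ∫_{x>0} x e^{-x} F(4/3 - x) dx`. -/
noncomputable def needleI (F : ℝ → ℝ) : ℝ := ∫ x in Ioi (0:ℝ), x * Real.exp (-x) * F (4/3 - x)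

theorem needleE_pos (β σ y : ℝ) : 0 < needleE β σ y := lt_min one_pos (exp_pos _)

theorem needleE_le_one (β σ y : ℝ) : needleE β σ y ≤ 1 := min_le_left _ _

theorem needleE_continuous (β σ : ℝ) : Continuous (needleE β σ) := by
  unfold needleE; fun_prop

theorem needleE_abs_le (β σ y : ℝ) : |needleE β σ y| ≤ 1 := by
  rw [abs_of_pos (needleE_pos β σ y)]; exact needleE_le_one β σ y

theorem needle_hv_measurable : Measurable hv := by
  unfold hv
  exact Measurable.ite measurableSet_Ici measurable_const measurable_const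

theorem needleE_decomp {β σ : ℝ} (hσ : 0 < σ) (y : ℝ) :
    needleE β σ y - hv y =
      (Iio β).indicator (fun y => Real.exp (-β / σ) * Real.exp (1 / σ * y)) y +
        ((if β ≤ y then (1:ℝ) else 0) - (if 0 ≤ y then (1:ℝ) else 0)) := by
  unfold needleE hv
  by_cases hy : y < β
  · have h1 : Real.exp ((y - β) / σ) ≤ 1 := by
      rw [exp_le_one_iff]; exact div_nonpos_of_nonpos_of_nonneg (by linarith) hσ.le
    rw [min_eq_right h1, indicator_of_mem (by exact hy), if_neg (not_le.mpr hy)]
    have h2 : Real.exp ((y - β) / σ) = Real.exp (-β / σ) * Real.exp (1 / σ * y) := by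
      rw [← exp_add]; congr 1; ring
    rw [h2]; ring
  · have hy' : β ≤ y := not_lt.mp hy
    have h1 : 1 ≤ Real.exp ((y - β) / σ) := by
      rw [one_le_exp_iff]; exact div_nonneg (by linarith) hσ.le
    rw [min_eq_left h1, indicator_of_notMem (by exact hy), if_pos hy']
    ring

theorem needle_step_integrable (β : ℝ) :
    Integrable (fun y : ℝ => (if β ≤ y then (1:ℝ) else 0) - (if 0 ≤ y then (1:ℝ) else 0)) := by
  have h : (fun y : ℝ => (if β ≤ y then (1:ℝ) else 0) - (if 0 ≤ y then (1:ℝ) else 0))
      = fun y => (Ico β 0).indicator (fun _ => (1:ℝ)) y - (Ico 0 β).indicator (fun _ => (1:ℝ)) y := by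
    funext y
    by_cases h1 : β ≤ y <;> by_cases h2 : 0 ≤ y <;> simp [indicator, h1, h2, not_lt.mpr, lt_of_not_ge]
  rw [h]
  refine Integrable.sub ?_ ?_
  · exact (integrable_indicator_iff measurableSet_Ico).mpr
      (integrableOn_const (by simp))
  · exact (integrable_indicator_iff measurableSet_Ico).mpr
      (integrableOn_const (by simp))

theorem needle_step_integral (β : ℝ) :
    ∫ y : ℝ, ((if β ≤ y then (1:ℝ) else 0) - (if 0 ≤ y then (1:ℝ) else 0)) = -β := by
  have h : (fun y : ℝ => (if β ≤ y then (1:ℝ) else 0) - (if 0 ≤ y then (1:ℝ) else 0))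
      = fun y => (Ico β 0).indicator (fun _ => (1:ℝ)) y - (Ico 0 β).indicator (fun _ => (1:ℝ)) y := by
    funext y
    by_cases h1 : β ≤ y <;> by_cases h2 : 0 ≤ y <;> simp [indicator, h1, h2, not_lt.mpr, lt_of_not_ge]
  rw [h, integral_sub]
  · rw [integral_indicator measurableSet_Ico, integral_indicator measurableSet_Ico]
    simp only [integral_const, smul_eq_mul, mul_one, Measure.real, Measure.restrict_apply_univ,
      Real.volume_Ico]
    rcases le_total β 0 with hb | hb
    · rw [ENNReal.toReal_ofReal (by linarith), ENNReal.ofReal_of_nonpos (by linarith : β - 0 ≤ 0),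
        ENNReal.toReal_zero]; ring
    · rw [ENNReal.ofReal_of_nonpos (by linarith : 0 - β ≤ 0), ENNReal.toReal_zero,
        ENNReal.toReal_ofReal (by linarith)]; ring
  · exact (integrable_indicator_iff measurableSet_Ico).mpr (integrableOn_const (by simp))
  · exact (integrable_indicator_iff measurableSet_Ico).mpr (integrableOn_const (by simp))

theorem needle_tail_integrable {β σ : ℝ} (hσ : 0 < σ) :
    Integrable ((Iio β).indicator (fun y => Real.exp (-β / σ) * Real.exp (1 / σ * y))) := by
  rw [integrable_indicator_iff measurableSet_Iio]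
  have h : IntegrableOn (fun y => Real.exp (-β / σ) * Real.exp (1 / σ * y)) (Iic β) :=
    (integrableOn_exp_mul_Iic (a := 1 / σ) (by positivity) β).const_mul (Real.exp (-β / σ))
  exact h.mono_set Iio_subset_Iic_self

theorem needle_tail_integral {β σ : ℝ} (hσ : 0 < σ) :
    ∫ y, (Iio β).indicator (fun y => Real.exp (-β / σ) * Real.exp (1 / σ * y)) y = σ := by
  rw [integral_indicator measurableSet_Iio, integral_const_mul, ← integral_Iic_eq_integral_Iio,
    integral_exp_mul_Iic (by positivity)]
  have : Real.exp (-β / σ) * (Real.exp (1 / σ * β) / (1 / σ))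
      = (Real.exp (-β / σ) * Real.exp (1 / σ * β)) * σ := by field_simp
  rw [this, ← exp_add]
  have : -β / σ + 1 / σ * β = 0 := by field_simp; ring
  rw [this, exp_zero, one_mul]

theorem needleE_integrable {β σ : ℝ} (hσ : 0 < σ) :
    Integrable (fun y => needleE β σ y - hv y) := by
  have h : (fun y => needleE β σ y - hv y) = fun y =>
      (Iio β).indicator (fun y => Real.exp (-β / σ) * Real.exp (1 / σ * y)) y +
        ((if β ≤ y then (1:ℝ) else 0) - (if 0 ≤ y then (1:ℝ) else 0)) :=
    funext (needleE_decomp hσ)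
  rw [h]
  exact (needle_tail_integrable hσ).add (needle_step_integrable β)

theorem needleE_integral {β σ : ℝ} (hσ : 0 < σ) :
    ∫ y, (needleE β σ y - hv y) = σ - β := by
  have h : (fun y => needleE β σ y - hv y) = fun y =>
      (Iio β).indicator (fun y => Real.exp (-β / σ) * Real.exp (1 / σ * y)) y +
        ((if β ≤ y then (1:ℝ) else 0) - (if 0 ≤ y then (1:ℝ) else 0)) :=
    funext (needleE_decomp hσ)
  rw [h, integral_add (needle_tail_integrable hσ) (needle_step_integrable β),
    needle_tail_integral hσ, needle_step_integral]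
  ring

end Crest.Agent.S0423
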