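import Crest.Agent.S0423.Needle.Chord
import Crest.Agent.S0423.Needle.Compare

/-! S0423, module `Needle.Main`: chord needles of a log-concave CDF and the basic estimates. -/

set_option autoImplicit false

namespace Crest.Agent.S0423

open MeasureTheory Set Real

/-- left chord point. -/
noncomputable def needleY1 (ρ : ℝ) : ℝ := 4/3 - needleX2 ρ
/-- right chord point. -/
noncomputable def needleY2 (ρ : ℝ) : ℝ := 4/3 - needleX1 ρ
/-- slope of the chord of `log K`. -/
noncomputable def needleS (K : ℝ → ℝ) (ρ : ℝ) : ℝ :=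
  (Real.log (K (needleY2 ρ)) - Real.log (K (needleY1 ρ))) / (needleY2 ρ - needleY1 ρ)
/-- scale of the chord needle. -/
noncomputable def needleSig (K : ℝ → ℝ) (ρ : ℝ) : ℝ := 1 / needleS K ρ
/-- location of the chord needle. -/
noncomputable def needleBet (K : ℝ → ℝ) (ρ : ℝ) : ℝ :=
  needleY2 ρ - needleSig K ρ * Real.log (K (needleY2 ρ))

theorem needle_y1_lt_y2 {ρ : ℝ} (hρ : 1 < ρ) : needleY1 ρ < needleY2 ρ := by
  unfold needleY1 needleY2; linarith [needle_x1_lt_x2 hρ]

theorem needle_y2_sub_y1 {ρ : ℝ} (hρ : 1 < ρ) : needleY2 ρ - needleY1 ρ = Real.log ρ := by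
  unfold needleY1 needleY2; linarith [needle_x2_sub_x1 hρ]

theorem needle_y2_gt {ρ : ℝ} (hρ : 1 < ρ) : 1/3 < needleY2 ρ := by
  unfold needleY2; linarith [needle_x1_lt_one hρ]

theorem needle_y2_lt {ρ : ℝ} (hρ : 1 < ρ) : needleY2 ρ < 4/3 := by
  unfold needleY2; linarith [needle_x1_pos hρ]

section
variable {K : ℝ → ℝ} {m : ℝ}

theorem needleS_pos (hK : LC K m) (h1 : ∀ y, K y < 1) {ρ : ℝ} (hρ : 1 < ρ) : 0 < needleS K ρ := by
  unfold needleS
  apply div_pos
  · have := needle_strictMono hK h1 (needle_y1_lt_y2 hρ)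
    have := Real.log_lt_log (hK.pos _) this
    linarith
  · linarith [needle_y1_lt_y2 hρ]

theorem needleSig_pos (hK : LC K m) (h1 : ∀ y, K y < 1) {ρ : ℝ} (hρ : 1 < ρ) :
    0 < needleSig K ρ := by
  unfold needleSig; exact one_div_pos.mpr (needleS_pos hK h1 hρ)

/-- the chord needle in exponential form. -/
theorem needleE_chord (hK : LC K m) (h1 : ∀ y, K y < 1) {ρ : ℝ} (hρ : 1 < ρ) (y : ℝ) :
    needleE (needleBet K ρ) (needleSig K ρ) y
      = min 1 (Real.exp (Real.log (K (needleY2 ρ)) + needleS K ρ * (y - needleY2 ρ))) := by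
  have hs := needleS_pos hK h1 hρ
  unfold needleE needleBet needleSig
  congr 2
  field_simp
  ring

theorem needle_E_le_K_inside (hK : LC K m) (h1 : ∀ y, K y < 1) {ρ : ℝ} (hρ : 1 < ρ) {y : ℝ}
    (hy1 : needleY1 ρ ≤ y) (hy2 : y ≤ needleY2 ρ) :
    needleE (needleBet K ρ) (needleSig K ρ) y ≤ K y := by
  rw [needleE_chord hK h1 hρ]
  have h := needle_chord_inside hK.conc (needle_y1_lt_y2 hρ) hy1 hy2
  calc min 1 (Real.exp (Real.log (K (needleY2 ρ)) + needleS K ρ * (y - needleY2 ρ)))
      ≤ Real.exp (Real.log (K (needleY2 ρ)) + needleS K ρ * (y - needleY2 ρ)) := min_le_right _ _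
    _ ≤ Real.exp (Real.log (K y)) := Real.exp_le_exp.mpr h
    _ = K y := Real.exp_log (hK.pos y)

theorem needle_K_le_E_outside (hK : LC K m) (h1 : ∀ y, K y < 1) {ρ : ℝ} (hρ : 1 < ρ) {y : ℝ}
    (hy : y ≤ needleY1 ρ ∨ needleY2 ρ ≤ y) :
    K y ≤ needleE (needleBet K ρ) (needleSig K ρ) y := by
  rw [needleE_chord hK h1 hρ]
  have h : Real.log (K y) ≤ Real.log (K (needleY2 ρ)) + needleS K ρ * (y - needleY2 ρ) := by
    rcases hy with hy | hy
    · exact needle_chord_left hK.conc (needle_y1_lt_y2 hρ) hy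
    · exact needle_chord_right hK.conc (needle_y1_lt_y2 hρ) hy
  refine le_min (hK.le_one y) ?_
  calc K y = Real.exp (Real.log (K y)) := (Real.exp_log (hK.pos y)).symm
    _ ≤ _ := Real.exp_le_exp.mpr h

theorem needle_LC_measurable (hK : LC K m) : Measurable K := hK.cont.measurable

theorem needle_LC_abs_le (hK : LC K m) (y : ℝ) : |K y| ≤ 1 := by
  rw [abs_of_pos (hK.pos y)]; exact hK.le_one y

/-- Step 1: `I(K) ≥ I(E) + h (β - σ)` for the chord needle `E`. -/
theorem needle_step1 (hK : LC K 0) (h1 : ∀ y, K y < 1) {ρ : ℝ} (hρ : 1 < ρ) :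
    needleH ρ * (needleBet K ρ - needleSig K ρ)
      ≤ needleI K - needleI (needleE (needleBet K ρ) (needleSig K ρ)) := by
  have hσ := needleSig_pos hK h1 hρ
  have key := needle_compare (F := K) (G := needleE (needleBet K ρ) (needleSig K ρ))
    (needle_LC_measurable hK) (needleE_continuous _ _).measurable (needle_LC_abs_le hK)
    (needleE_abs_le _ _) hK.integ (needleE_integrable hσ) (needleH ρ) (by
      intro x
      rcases le_total x (needleX1 ρ) with hx1 | hx1
      · refine mul_nonneg_of_nonpos_of_nonpos ?_ ?_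
        · linarith [needleW_le_left hρ hx1]
        · have := needle_K_le_E_outside hK h1 hρ (y := 4/3 - x)
            (Or.inr (by unfold needleY2; linarith))
          linarith
      · rcases le_total x (needleX2 ρ) with hx2 | hx2
        · refine mul_nonneg ?_ ?_
          · linarith [needleW_ge hρ hx1 hx2]
          · have := needle_E_le_K_inside hK h1 hρ (y := 4/3 - x)
              (by unfold needleY1; linarith) (by unfold needleY2; linarith)
            linarith
        · refine mul_nonneg_of_nonpos_of_nonpos ?_ ?_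
          · linarith [needleW_le_right hρ hx2]
          · have := needle_K_le_E_outside hK h1 hρ (y := 4/3 - x)
              (Or.inl (by unfold needleY1; linarith))
            linarith)
  rw [hK.mean, needleE_integral hσ] at key
  linarith

/-- Step 2a: if `σ ≤ β` then `I(E_{β,σ}) ≥ I(E_{σ,σ}) - (β - σ)/e`. -/
theorem needle_step2a {β σ : ℝ} (hσ : 0 < σ) (hβ : σ ≤ β) :
    needleI (needleE σ σ) - Real.exp (-1) * (β - σ) ≤ needleI (needleE β σ) := by
  have key := needle_compare (F := needleE β σ) (G := needleE σ σ)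
    (needleE_continuous _ _).measurable (needleE_continuous _ _).measurable
    (needleE_abs_le _ _) (needleE_abs_le _ _) (needleE_integrable hσ) (needleE_integrable hσ)
    (Real.exp (-1)) (by
      intro x
      refine mul_nonneg_of_nonpos_of_nonpos ?_ ?_
      · linarith [needleW_le x]
      · have : needleE β σ (4/3 - x) ≤ needleE σ σ (4/3 - x) := by
          unfold needleE
          refine min_le_min le_rfl (Real.exp_le_exp.mpr ?_)
          exact div_le_div_of_nonneg_right (by linarith) hσ.le
        linarith)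
  rw [needleE_integral hσ, needleE_integral hσ] at key
  linarith

/-- Step 2b: if `β ≤ σ` then `I(E_{β,σ}) ≥ I(E_{σ,σ})`. -/
theorem needle_step2b {β σ : ℝ} (hσ : 0 < σ) (hβ : β ≤ σ) :
    needleI (needleE σ σ) ≤ needleI (needleE β σ) := by
  have key := needle_compare (F := needleE β σ) (G := needleE σ σ)
    (needleE_continuous _ _).measurable (needleE_continuous _ _).measurable
    (needleE_abs_le _ _) (needleE_abs_le _ _) (needleE_integrable hσ) (needleE_integrable hσ)
    0 (by
      intro x
      refine mul_nonneg ?_ ?_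
      · linarith [needleW_nonneg x]
      · have : needleE σ σ (4/3 - x) ≤ needleE β σ (4/3 - x) := by
          unfold needleE
          refine min_le_min le_rfl (Real.exp_le_exp.mpr ?_)
          exact div_le_div_of_nonneg_right (by linarith) hσ.le
        linarith)
  linarith

/-- `β - σ = ∫ (K - E) ≤ y₂ - y₁ = log ρ`. -/
theorem needle_bet_sub_sig_le (hK : LC K 0) (h1 : ∀ y, K y < 1) {ρ : ℝ} (hρ : 1 < ρ) :
    needleBet K ρ - needleSig K ρ ≤ Real.log ρ := by
  have hσ := needleSig_pos hK h1 hρ
  have hint : ∫ y, ((K y - hv y) - (needleE (needleBet K ρ) (needleSig K ρ) y - hv y))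
      = needleBet K ρ - needleSig K ρ := by
    rw [integral_sub hK.integ (needleE_integrable hσ), hK.mean, needleE_integral hσ]; ring
  rw [← hint, ← needle_y2_sub_y1 hρ]
  have hind : ∫ y, (Icc (needleY1 ρ) (needleY2 ρ)).indicator (fun _ => (1:ℝ)) y
      = needleY2 ρ - needleY1 ρ := by
    rw [integral_indicator measurableSet_Icc]
    simp only [integral_const, smul_eq_mul, mul_one, Measure.real, Measure.restrict_apply_univ,
      Real.volume_Icc]
    rw [ENNReal.toReal_ofReal (by linarith [needle_y1_lt_y2 hρ])]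
  rw [← hind]
  refine integral_mono (hK.integ.sub (needleE_integrable hσ))
    ((integrable_indicator_iff measurableSet_Icc).mpr (integrableOn_const (by simp))) ?_
  intro y
  simp only
  by_cases hy : y ∈ Icc (needleY1 ρ) (needleY2 ρ)
  · rw [indicator_of_mem hy]
    linarith [hK.le_one y, needleE_pos (needleBet K ρ) (needleSig K ρ) y]
  · rw [indicator_of_notMem hy]
    have hy' : y ≤ needleY1 ρ ∨ needleY2 ρ ≤ y := by
      simp only [mem_Icc, not_and_or, not_le] at hy
      rcases hy with h | h
      · exact Or.inl h.le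
      · exact Or.inr h.le
    linarith [needle_K_le_E_outside hK h1 hρ hy']

theorem needleBet_nonneg (hK : LC K m) (h1 : ∀ y, K y < 1) {ρ : ℝ} (hρ : 1 < ρ) :
    0 ≤ needleBet K ρ := by
  unfold needleBet
  have hσ := needleSig_pos hK h1 hρ
  have hlog : Real.log (K (needleY2 ρ)) ≤ 0 := Real.log_nonpos (hK.pos _).le (hK.le_one _)
  nlinarith [needle_y2_gt hρ]

/-- the slope of every chord is at least the slope over `[4/3, 7/3]`. -/
theorem needleS_ge (hK : LC K m) {ρ : ℝ} (hρ : 1 < ρ) :
    Real.log (K (7/3)) - Real.log (K (4/3)) ≤ needleS K ρ := by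
  have e1 := needle_slope_adjacent hK.conc (needle_y1_lt_y2 hρ) (needle_y2_lt hρ)
  have e2 := needle_slope_adjacent hK.conc (needle_y2_lt hρ) (by norm_num : (4:ℝ)/3 < 7/3)
  have e3 : (Real.log (K (7/3)) - Real.log (K (4/3))) / (7/3 - 4/3)
      = Real.log (K (7/3)) - Real.log (K (4/3)) := by norm_num
  unfold needleS
  linarith

theorem needle_s0_pos (hK : LC K m) (h1 : ∀ y, K y < 1) :
    0 < Real.log (K (7/3)) - Real.log (K (4/3)) := by
  have := needle_strictMono hK h1 (by norm_num : (4:ℝ)/3 < 7/3)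
  have := Real.log_lt_log (hK.pos _) this
  linarith

theorem needleSig_le (hK : LC K m) (h1 : ∀ y, K y < 1) {ρ : ℝ} (hρ : 1 < ρ) :
    needleSig K ρ ≤ 1 / (Real.log (K (7/3)) - Real.log (K (4/3))) := by
  unfold needleSig
  exact one_div_le_one_div_of_le (needle_s0_pos hK h1) (needleS_ge hK hρ)

end

end Crest.Agent.S0423
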