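import Crest.Agent.S0423.Defs

/-! S0423, module `Needle.Weight`: the weight `x e^{-x}` and its level sets. -/

set_option autoImplicit false

namespace Crest.Agent.S0423

open MeasureTheory Set Real

/-- weight on the `x`-axis, extended by zero to `x ≤ 0`. -/
noncomputable def needleW (x : ℝ) : ℝ := if 0 < x then x * Real.exp (-x) else 0

theorem needle_w_le (x : ℝ) : x * exp (-x) ≤ exp (-1) := by
  have h := add_one_le_exp (x - 1)
  have h2 : x * exp (-x) ≤ exp (x - 1) * exp (-x) :=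
    mul_le_mul_of_nonneg_right (by linarith) (exp_pos _).le
  calc x * exp (-x) ≤ exp (x - 1) * exp (-x) := h2
    _ = exp (-1) := by rw [← exp_add]; ring_nf

theorem needle_w_mono {x x' : ℝ} (hx : 0 ≤ x) (h : x ≤ x') (h' : x' ≤ 1) :
    x * exp (-x) ≤ x' * exp (-x') := by
  have hd : 1 - (x' - x) ≤ exp (-(x' - x)) := by
    have := add_one_le_exp (-(x' - x)); linarith
  have h1 : x ≤ x' * (1 - (x' - x)) := by nlinarith
  have h2 : x' * (1 - (x' - x)) ≤ x' * exp (-(x' - x)) :=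
    mul_le_mul_of_nonneg_left hd (by linarith)
  have h3 : x * exp (-x) ≤ x' * exp (-(x' - x)) * exp (-x) :=
    mul_le_mul_of_nonneg_right (h1.trans h2) (exp_pos _).le
  calc x * exp (-x) ≤ x' * exp (-(x' - x)) * exp (-x) := h3
    _ = x' * exp (-x') := by rw [mul_assoc, ← exp_add]; ring_nf

theorem needle_w_anti {x x' : ℝ} (hx : 1 ≤ x) (h : x ≤ x') :
    x' * exp (-x') ≤ x * exp (-x) := by
  have hd : 1 + (x' - x) ≤ exp (x' - x) := by
    have := add_one_le_exp (x' - x); linarith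
  have h1 : x' ≤ x * (1 + (x' - x)) := by nlinarith
  have h2 : x * (1 + (x' - x)) ≤ x * exp (x' - x) :=
    mul_le_mul_of_nonneg_left hd (by linarith)
  have h3 : x' * exp (-x') ≤ x * exp (x' - x) * exp (-x') :=
    mul_le_mul_of_nonneg_right (h1.trans h2) (exp_pos _).le
  calc x' * exp (-x') ≤ x * exp (x' - x) * exp (-x') := h3
    _ = x * exp (-x) := by rw [mul_assoc, ← exp_add]; ring_nf

/-- lower end of the level set, parametrised by `ρ > 1`. -/
noncomputable def needleX1 (ρ : ℝ) : ℝ := Real.log ρ / (ρ - 1)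

/-- upper end of the level set. -/
noncomputable def needleX2 (ρ : ℝ) : ℝ := ρ * (Real.log ρ / (ρ - 1))

/-- the level. -/
noncomputable def needleH (ρ : ℝ) : ℝ := needleX1 ρ * Real.exp (-needleX1 ρ)

theorem needle_x1_pos {ρ : ℝ} (hρ : 1 < ρ) : 0 < needleX1 ρ :=
  div_pos (Real.log_pos hρ) (by linarith)

theorem needle_x1_lt_one {ρ : ℝ} (hρ : 1 < ρ) : needleX1 ρ < 1 := by
  unfold needleX1
  rw [div_lt_one (by linarith)]
  exact Real.log_lt_sub_one_of_pos (by linarith) (by linarith)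

theorem needle_one_lt_x2 {ρ : ℝ} (hρ : 1 < ρ) : 1 < needleX2 ρ := by
  unfold needleX2
  have hρ0 : 0 < ρ := by linarith
  have h := Real.log_lt_sub_one_of_pos (inv_pos.mpr hρ0) (by
    intro h; have : ρ = 1 := by simpa using congrArg (fun t => t⁻¹) h
    linarith)
  rw [Real.log_inv] at h
  rw [← mul_div_assoc, lt_div_iff₀ (by linarith)]
  have h2 : ρ * (ρ⁻¹ - 1) = 1 - ρ := by field_simp
  nlinarith

theorem needle_x2_sub_x1 {ρ : ℝ} (hρ : 1 < ρ) : needleX2 ρ - needleX1 ρ = Real.log ρ := by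
  unfold needleX2 needleX1
  have : ρ - 1 ≠ 0 := by linarith
  field_simp

theorem needle_x1_lt_x2 {ρ : ℝ} (hρ : 1 < ρ) : needleX1 ρ < needleX2 ρ :=
  (needle_x1_lt_one hρ).trans (needle_one_lt_x2 hρ)

theorem needle_h_eq {ρ : ℝ} (hρ : 1 < ρ) :
    needleX2 ρ * exp (-needleX2 ρ) = needleH ρ := by
  have hρ0 : 0 < ρ := by linarith
  have h : -needleX2 ρ = -needleX1 ρ + -Real.log ρ := by
    have := needle_x2_sub_x1 hρ; linarith
  rw [h, exp_add, exp_neg (Real.log ρ), Real.exp_log hρ0]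
  unfold needleH needleX2 needleX1
  field_simp

theorem needle_h_pos {ρ : ℝ} (hρ : 1 < ρ) : 0 < needleH ρ :=
  mul_pos (needle_x1_pos hρ) (exp_pos _)

theorem needle_h_le {ρ : ℝ} : needleH ρ ≤ exp (-1) := needle_w_le _

theorem needle_h_le_x1 {ρ : ℝ} (hρ : 1 < ρ) : needleH ρ ≤ needleX1 ρ := by
  unfold needleH
  have : exp (-needleX1 ρ) ≤ 1 := by
    rw [exp_le_one_iff]; linarith [needle_x1_pos hρ]
  nlinarith [needle_x1_pos hρ]

theorem needle_level_ge {ρ : ℝ} (hρ : 1 < ρ) {x : ℝ} (h1 : needleX1 ρ ≤ x) (h2 : x ≤ needleX2 ρ) :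
    needleH ρ ≤ x * exp (-x) := by
  rcases le_total x 1 with hx | hx
  · exact needle_w_mono (needle_x1_pos hρ).le h1 hx
  · rw [← needle_h_eq hρ]
    exact needle_w_anti hx h2

theorem needle_level_le_left {ρ : ℝ} (hρ : 1 < ρ) {x : ℝ} (h0 : 0 ≤ x) (h1 : x ≤ needleX1 ρ) :
    x * exp (-x) ≤ needleH ρ :=
  needle_w_mono h0 h1 (needle_x1_lt_one hρ).le

theorem needle_level_le_right {ρ : ℝ} (hρ : 1 < ρ) {x : ℝ} (h2 : needleX2 ρ ≤ x) :
    x * exp (-x) ≤ needleH ρ := by
  rw [← needle_h_eq hρ]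
  exact needle_w_anti (needle_one_lt_x2 hρ).le h2

theorem needleW_le (x : ℝ) : needleW x ≤ exp (-1) := by
  unfold needleW
  split_ifs
  · exact needle_w_le x
  · exact (exp_pos _).le

theorem needleW_nonneg (x : ℝ) : 0 ≤ needleW x := by
  unfold needleW
  split_ifs with h
  · exact mul_nonneg h.le (exp_pos _).le
  · exact le_rfl

theorem needleW_ge {ρ : ℝ} (hρ : 1 < ρ) {x : ℝ} (h1 : needleX1 ρ ≤ x) (h2 : x ≤ needleX2 ρ) :
    needleH ρ ≤ needleW x := by
  unfold needleW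
  rw [if_pos ((needle_x1_pos hρ).trans_le h1)]
  exact needle_level_ge hρ h1 h2

theorem needleW_le_left {ρ : ℝ} (hρ : 1 < ρ) {x : ℝ} (h1 : x ≤ needleX1 ρ) :
    needleW x ≤ needleH ρ := by
  unfold needleW
  split_ifs with h
  · exact needle_level_le_left hρ h.le h1
  · exact (needle_h_pos hρ).le

theorem needleW_le_right {ρ : ℝ} (hρ : 1 < ρ) {x : ℝ} (h2 : needleX2 ρ ≤ x) :
    needleW x ≤ needleH ρ := by
  unfold needleW
  rw [if_pos ((needle_x1_pos hρ).trans_le ((needle_x1_lt_x2 hρ).le.trans h2))]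
  exact needle_level_le_right hρ h2

end Crest.Agent.S0423
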